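import Vale.Agent.Lib.H15.Linear

/-!
The `ℓ¹`-Bass conjecture: vanishing of trace coefficients at elements whose centralizer has a
character dominated by a length function.
-/

namespace Vale.Agent.Results.P184.DominatedCharacter

open Vale.Agent.Lib.H15

universe u v w

/-- Main result. -/
theorem result :
    (∀ (G : Type u) [Group G] (g : G), HasDominatedCharacter g →
      ∀ (q : ℕ) (e : Matrix (Fin q) (Fin q) (G → ℂ)), IsEllOneIdempotent e →
        tau e (ConjClasses.mk g) = 0) ∧
    (∀ (G : Type u) [Group G] (X : Type v) [PseudoMetricSpace X] [MulAction G X]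
      [IsIsometricSMul G X] (g : G), HasPositiveTranslation X g →
      (SatisfiesFourPoint X ∨ IsAmenableGroup (Subgroup.centralizer {g} : Subgroup G)) →
        HasDominatedCharacter g) ∧
    (∀ (X : Type v) [PseudoMetricSpace X], SatisfiesCN X → SatisfiesFourPoint X) ∧
    (∀ (G : Type u) [Group G] (K : Type w) [Field K] (a : AbsoluteValue K ℝ) (n : ℕ)
      (ρ : G →* Matrix.GeneralLinearGroup (Fin n) K) (g : G) (μ : K),
      Module.End.HasEigenvalue (Matrix.toLin' (ρ g).val) μ → a μ ≠ 1 →
        HasDominatedCharacter g) ∧
    (∀ (G : Type u) [Group G], {C : ConjClasses G | ∀ g ∈ C.carrier, IsOfFinOrder g}.Finite →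
      (∀ g : G, ¬ IsOfFinOrder g → HasDominatedCharacter g) → EllOneBass G) := by
  refine ⟨fun G _ g hg q e he => tau_eq_zero_of_translation g hg.hasTranslationFunction e he,
    ?_, fun X _ hX => four_point_of_CN hX, ?_,
    fun G _ hfin hgood => ellOneBass_of_translation hfin
      fun g hg => (hgood g hg).hasTranslationFunction⟩
  · intro G _ X _ _ _ g hg hX
    rcases hX with hX | hZ
    · exact (hasTranslationFunction_of_fourPoint hX g hg).hasDominatedCharacter
    · exact (hasTranslationFunction_of_amenable g hZ hg).hasDominatedCharacter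
  · intro G _ K _ a n ρ g μ hμ ha
    exact hasDominatedCharacter_of_eigenvalue a ρ g μ hμ ha

end Vale.Agent.Results.P184.DominatedCharacter
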